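import Mathlib

/-!
Exact counting of contingency tables with bounded column sums, by a row by row
recursion whose subproblems depend only on the multisets of residual column sums.
-/

namespace Vale.Agent.Results.P328.ExactBoundedColumns

open Finset

/-- One row sweep: `need` units of the current row remain to be placed, `todo` lists the
residual sums of the columns not visited yet, `seen` those of the visited columns (after this
row), and `next` evaluates the remaining rows on the final residual list. -/
def rowSweep (next : List ℕ → ℕ) : ℕ → List ℕ → List ℕ → ℕ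
  | need, [], seen => if need = 0 then next seen else 0
  | need, u :: us, seen =>
      ∑ k ∈ range (min u need + 1), rowSweep next (need - k) us ((u - k) :: seen)

/-- Row by row evaluation: `rows` are the remaining row sums, `cols` the residual column sums. -/
def tableCount : List ℕ → List ℕ → ℕ
  | [], cols => if ∀ x ∈ cols, x = 0 then 1 else 0
  | a :: rest, cols => rowSweep (tableCount rest) a cols []

/-- A subproblem of the recursion. -/
structure Sub where
  rows : List ℕ
  need : ℕ
  todo : List ℕ
  seen : List ℕ

/-- The value of a subproblem. -/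
def Sub.value (s : Sub) : ℕ := rowSweep (tableCount s.rows) s.need s.todo s.seen

/-- The subproblems directly used by a subproblem. -/
def Sub.calls (s : Sub) : List Sub :=
  match s.todo with
  | u :: us => (List.range (min u s.need + 1)).map fun k =>
      ⟨s.rows, s.need - k, us, (u - k) :: s.seen⟩
  | [] =>
    match s.need, s.rows with
    | 0, a :: rest => [⟨rest, a, s.seen, []⟩]
    | _, _ => []

/-- The contribution of a subproblem that uses no other subproblem. -/
def Sub.leaf (s : Sub) : ℕ :=
  match s.todo, s.need, s.rows with
  | [], 0, [] => if ∀ x ∈ s.seen, x = 0 then 1 else 0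
  | _, _, _ => 0

/-- Memoisation key: only the multisets of residual sums are remembered. -/
def Sub.key (s : Sub) : List ℕ × ℕ × Multiset ℕ × Multiset ℕ :=
  (s.rows, s.need, (s.todo : Multiset ℕ), (s.seen : Multiset ℕ))

/-- Reachability in the call graph. -/
def Reach (start : Sub) : Sub → Prop := Relation.ReflTransGen (fun s t => t ∈ s.calls) start

/-! ### The recursion equation -/

theorem value_eq (s : Sub) : s.value = s.leaf + (s.calls.map Sub.value).sum := by
  rcases s with ⟨rows, need, todo, seen⟩
  cases todo with
  | nil =>
    cases need with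
    | zero =>
      cases rows with
      | nil => simp [Sub.value, Sub.leaf, Sub.calls, rowSweep, tableCount]
      | cons a rest => simp [Sub.value, Sub.leaf, Sub.calls, rowSweep, tableCount]
    | succ a => simp [Sub.value, Sub.leaf, Sub.calls, rowSweep]
  | cons u us =>
    simp only [Sub.value, Sub.leaf, Sub.calls, rowSweep, zero_add, List.map_map]
    rw [← List.sum_toFinset _ (List.nodup_range)]
    simp only [List.toFinset_range]
    rfl

/-! ### Invariance under permutations -/

section perm

variable {next : List ℕ → ℕ}

theorem sweep_perm_seen (hn : ∀ L L', L.Perm L' → next L = next L') (us : List ℕ) :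
    ∀ (need : ℕ) {seen seen' : List ℕ}, seen.Perm seen' →
      rowSweep next need us seen = rowSweep next need us seen' := by
  induction us with
  | nil =>
    intro need seen seen' h
    simp only [rowSweep]
    rw [hn _ _ h]
  | cons u us ih =>
    intro need seen seen' h
    simp only [rowSweep]
    apply Finset.sum_congr rfl
    intro k _
    exact ih _ (h.cons _)

theorem sweep_swap (hn : ∀ L L', L.Perm L' → next L = next L') (u w : ℕ) (us : List ℕ)
    (need : ℕ) (seen : List ℕ) :
    rowSweep next need (u :: w :: us) seen = rowSweep next need (w :: u :: us) seen := by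
  simp only [rowSweep]
  rw [Finset.sum_sigma', Finset.sum_sigma']
  refine Finset.sum_bij' (fun x _ => ⟨x.2, x.1⟩) (fun x _ => ⟨x.2, x.1⟩) ?_ ?_ ?_ ?_ ?_
  · rintro ⟨k, l⟩ h
    simp only [mem_sigma, mem_range] at h ⊢
    omega
  · rintro ⟨k, l⟩ h
    simp only [mem_sigma, mem_range] at h ⊢
    omega
  · rintro ⟨k, l⟩ _; rfl
  · rintro ⟨k, l⟩ _; rfl
  · rintro ⟨k, l⟩ _
    simp only
    rw [show need - k - l = need - l - k by omega]
    exact sweep_perm_seen hn us _ (List.Perm.swap _ _ _)

theorem sweep_perm_todo (hn : ∀ L L', L.Perm L' → next L = next L') {us us' : List ℕ}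
    (h : us.Perm us') : ∀ (need : ℕ) (seen : List ℕ),
      rowSweep next need us seen = rowSweep next need us' seen := by
  induction h with
  | nil => intro _ _; rfl
  | cons u _ ih =>
    intro need seen
    simp only [rowSweep]
    apply Finset.sum_congr rfl
    intro k _
    exact ih _ _
  | swap u w us =>
    intro need seen
    exact sweep_swap hn w u us need seen
  | trans _ _ ih₁ ih₂ =>
    intro need seen
    exact (ih₁ _ _).trans (ih₂ _ _)

theorem tableCount_perm (rows : List ℕ) :
    ∀ {L L' : List ℕ}, L.Perm L' → tableCount rows L = tableCount rows L' := by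
  induction rows with
  | nil =>
    intro L L' h
    simp only [tableCount]
    have : (∀ x ∈ L, x = 0) ↔ ∀ x ∈ L', x = 0 := by
      constructor
      · intro hx x hm; exact hx x (h.mem_iff.mpr hm)
      · intro hx x hm; exact hx x (h.mem_iff.mp hm)
    simp [this]
  | cons a rest ih =>
    intro L L' h
    simp only [tableCount]
    exact sweep_perm_todo (fun _ _ h' => ih h') h _ _

end perm

theorem value_key {s t : Sub} (h : s.key = t.key) : s.value = t.value := by
  rcases s with ⟨rows, need, todo, seen⟩
  rcases t with ⟨rows', need', todo', seen'⟩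
  simp only [Sub.key, Prod.mk.injEq] at h
  obtain ⟨rfl, rfl, h₁, h₂⟩ := h
  have h₁' : todo.Perm todo' := Multiset.coe_eq_coe.mp h₁
  have h₂' : seen.Perm seen' := Multiset.coe_eq_coe.mp h₂
  simp only [Sub.value]
  have hn : ∀ L L', L.Perm L' → tableCount rows L = tableCount rows L' :=
    fun _ _ h' => tableCount_perm rows h'
  rw [sweep_perm_todo hn h₁', sweep_perm_seen hn _ _ h₂']

/-! ### Correctness of the sweep -/

/-- Row vectors below `u` with total `a`. -/
def boxVec {n : ℕ} (u : Fin n → ℕ) (a : ℕ) : Finset (Fin n → ℕ) :=
  (Fintype.piFinset fun j => range (u j + 1)).filter fun v => ∑ j, v j = a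

theorem mem_boxVec {n : ℕ} {u : Fin n → ℕ} {a : ℕ} {v : Fin n → ℕ} :
    v ∈ boxVec u a ↔ (∀ j, v j ≤ u j) ∧ ∑ j, v j = a := by
  simp [boxVec, Fintype.mem_piFinset]

theorem sweep_eq {next : List ℕ → ℕ} (hn : ∀ L L', L.Perm L' → next L = next L') :
    ∀ (n : ℕ) (u : Fin n → ℕ) (need : ℕ) (seen : List ℕ),
      rowSweep next need (List.ofFn u) seen =
        ∑ v ∈ boxVec u need, next (List.ofFn (fun j => u j - v j) ++ seen) := by
  intro n
  induction n with
  | zero =>
    intro u need seen
    simp only [List.ofFn_zero, rowSweep, List.nil_append]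
    by_cases h : need = 0
    · subst h
      have : boxVec u 0 = {fun _ => 0} := by
        ext v
        simp only [mem_boxVec, mem_singleton]
        constructor
        · intro _; funext j; exact j.elim0
        · intro _; exact ⟨fun j => j.elim0, by simp⟩
      rw [this]
      simp
    · have : boxVec u need = ∅ := by
        ext v
        simp only [mem_boxVec, notMem_empty, iff_false, not_and]
        intro _
        simp only [Finset.univ_eq_empty, Finset.sum_empty]
        exact fun h' => h h'.symm
      rw [this]
      simp [h]
  | succ n ih =>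
    intro u need seen
    rw [List.ofFn_succ]
    simp only [rowSweep]
    have hstep : ∀ k ∈ range (min (u 0) need + 1),
        rowSweep next (need - k) (List.ofFn fun i => u i.succ) ((u 0 - k) :: seen) =
          ∑ v' ∈ boxVec (fun i => u i.succ) (need - k),
            next (List.ofFn (fun j : Fin (n + 1) =>
              u j - (Fin.cons k v' : Fin (n + 1) → ℕ) j) ++ seen) := by
      intro k _
      rw [ih (fun i => u i.succ) (need - k) ((u 0 - k) :: seen)]
      apply Finset.sum_congr rfl
      intro v' _
      apply hn
      rw [List.ofFn_succ]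
      simp only [Fin.cons_zero, Fin.cons_succ, List.cons_append]
      exact List.perm_middle
    rw [Finset.sum_congr rfl hstep, Finset.sum_sigma']
    refine Finset.sum_bij (fun x _ => (Fin.cons x.1 x.2 : Fin (n + 1) → ℕ)) ?_ ?_ ?_ ?_
    · rintro ⟨k, v'⟩ h
      simp only [mem_sigma, mem_range, mem_boxVec] at h
      rw [mem_boxVec]
      refine ⟨?_, ?_⟩
      · intro j
        refine Fin.cases ?_ (fun i => ?_) j
        · simp only [Fin.cons_zero]; omega
        · simp only [Fin.cons_succ]; exact h.2.1 i
      · rw [Fin.sum_univ_succ]
        simp only [Fin.cons_zero, Fin.cons_succ]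
        omega
    · rintro ⟨k, v'⟩ _ ⟨k', w'⟩ _ h
      have h0 : k = k' := by simpa using congrFun h 0
      subst h0
      have h1 : v' = w' := by
        funext i
        simpa using congrFun h i.succ
      subst h1
      rfl
    · intro v hv
      rw [mem_boxVec] at hv
      refine ⟨⟨v 0, fun i => v i.succ⟩, ?_, ?_⟩
      · simp only [mem_sigma, mem_range, mem_boxVec]
        have hs := hv.2
        rw [Fin.sum_univ_succ] at hs
        have h0 := hv.1 0
        refine ⟨by omega, fun i => hv.1 i.succ, by omega⟩
      · simp only
        funext j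
        refine Fin.cases ?_ (fun i => ?_) j <;> simp
    · rintro ⟨k, v'⟩ _
      rfl

/-! ### Tables and the one row recursion -/

/-- Tables with prescribed margins, indexed by `Fin`. -/
abbrev TabSet {m n : ℕ} (r : Fin m → ℕ) (c : Fin n → ℕ) :=
  {x : Fin m → Fin n → ℕ // (∀ i, ∑ j, x i j = r i) ∧ ∀ j, ∑ i, x i j = c j}

theorem tab_zero {n : ℕ} (r : Fin 0 → ℕ) (c : Fin n → ℕ) :
    Nat.card (TabSet r c) = if ∀ j, c j = 0 then 1 else 0 := by
  split_ifs with h
  · have : Unique (TabSet r c) :=
      { default := ⟨fun i => i.elim0, fun i => i.elim0, fun j => by simp [h j]⟩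
        uniq := fun x => by
          apply Subtype.ext
          funext i
          exact i.elim0 }
    simp
  · have : IsEmpty (TabSet r c) := ⟨fun x => h fun j => by
      have := x.2.2 j
      simpa using this.symm⟩
    simp

instance tabFinite {m n : ℕ} (r : Fin m → ℕ) (c : Fin n → ℕ) : Finite (TabSet r c) := by
  refine Finite.of_injective
    (fun x : TabSet r c => fun (i : Fin m) (j : Fin n) =>
      (⟨x.1 i j, Nat.lt_succ_of_le (by
        rw [← x.2.2 j]
        exact Finset.single_le_sum (f := fun i => x.1 i j) (fun _ _ => Nat.zero_le _)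
          (Finset.mem_univ i))⟩ : Fin (c j + 1))) ?_
  intro x y h
  apply Subtype.ext
  funext i j
  have := congrFun (congrFun h i) j
  simpa using this

/-- Splitting the first row. -/
def consEquiv {m n : ℕ} (a : ℕ) (r : Fin m → ℕ) (c : Fin n → ℕ) :
    TabSet (Fin.cons a r : Fin (m + 1) → ℕ) c ≃
      Σ v : {v // v ∈ boxVec c a}, TabSet r (fun j => c j - v.1 j) where
  toFun x :=
    ⟨⟨x.1 0, by
        rw [mem_boxVec]
        refine ⟨fun j => ?_, by simpa using x.2.1 0⟩
        rw [← x.2.2 j]
        exact Finset.single_le_sum (f := fun i => x.1 i j) (fun _ _ => Nat.zero_le _)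
          (Finset.mem_univ 0)⟩,
      ⟨fun i => x.1 i.succ, fun i => by simpa using x.2.1 i.succ, fun j => by
        have := x.2.2 j
        rw [Fin.sum_univ_succ] at this
        simp only
        omega⟩⟩
  invFun y :=
    ⟨Fin.cons y.1.1 y.2.1, fun i => by
        refine Fin.cases ?_ (fun i' => ?_) i
        · simpa using (mem_boxVec.mp y.1.2).2
        · simpa using y.2.2.1 i', fun j => by
        rw [Fin.sum_univ_succ]
        have h1 := y.2.2.2 j
        have h2 := (mem_boxVec.mp y.1.2).1 j
        simp only [Fin.cons_zero, Fin.cons_succ]
        simp only at h1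
        omega⟩
  left_inv x := by
    apply Subtype.ext
    funext i
    refine Fin.cases ?_ (fun i' => ?_) i <;> simp
  right_inv y := by
    rcases y with ⟨⟨v, hv⟩, ⟨x, hx⟩⟩
    rfl

theorem tab_succ {m n : ℕ} (a : ℕ) (r : Fin m → ℕ) (c : Fin n → ℕ) :
    Nat.card (TabSet (Fin.cons a r : Fin (m + 1) → ℕ) c) =
      ∑ v ∈ boxVec c a, Nat.card (TabSet r (fun j => c j - v j)) := by
  rw [Nat.card_congr (consEquiv a r c), Nat.card_sigma]
  exact Finset.sum_coe_sort (boxVec c a) (fun v => Nat.card (TabSet r (fun j => c j - v j)))

/-! ### Main correctness -/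

theorem tableCount_eq : ∀ {m n : ℕ} (r : Fin m → ℕ) (c : Fin n → ℕ),
    tableCount (List.ofFn r) (List.ofFn c) = Nat.card (TabSet r c) := by
  intro m
  induction m with
  | zero =>
    intro n r c
    rw [tab_zero]
    simp only [List.ofFn_zero, tableCount, List.mem_ofFn]
    simp
  | succ m ih =>
    intro n r c
    have hr : r = (Fin.cons (r 0) (fun i => r i.succ) : Fin (m + 1) → ℕ) := by
      funext i
      refine Fin.cases ?_ (fun i' => ?_) i <;> simp
    rw [hr, tab_succ]
    rw [List.ofFn_succ]
    simp only [Fin.cons_zero, Fin.cons_succ, tableCount]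
    rw [sweep_eq (fun _ _ h => tableCount_perm _ h)]
    apply Finset.sum_congr rfl
    intro v _
    rw [List.append_nil, ih]

/-! ### Size of the values -/

theorem sweep_le {next : List ℕ → ℕ} {C ℓ B : ℕ}
    (hn : ∀ L, (∀ x ∈ L, x ≤ C) → L.length = ℓ → next L ≤ B) (us : List ℕ) :
    ∀ (need : ℕ) (seen : List ℕ), (∀ x ∈ us, x ≤ C) → (∀ x ∈ seen, x ≤ C) →
      us.length + seen.length = ℓ → rowSweep next need us seen ≤ (C + 1) ^ us.length * B := by
  induction us with
  | nil =>
    intro need seen _ h2 h3
    simp only [rowSweep, List.length_nil, pow_zero, one_mul]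
    split_ifs
    · exact hn _ h2 (by simpa using h3)
    · exact Nat.zero_le _
  | cons u us ih =>
    intro need seen h1 h2 h3
    simp only [rowSweep, List.length_cons]
    have hu : u ≤ C := h1 u (by simp)
    calc ∑ k ∈ range (min u need + 1), rowSweep next (need - k) us ((u - k) :: seen)
        ≤ ∑ _k ∈ range (min u need + 1), (C + 1) ^ us.length * B := by
          apply Finset.sum_le_sum
          intro k _
          apply ih
          · intro x hx; exact h1 x (by simp [hx])
          · intro x hx
            rcases List.mem_cons.mp hx with rfl | hx'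
            · omega
            · exact h2 x hx'
          · simp only [List.length_cons] at h3 ⊢
            omega
      _ = (min u need + 1) * ((C + 1) ^ us.length * B) := by simp
      _ ≤ (C + 1) * ((C + 1) ^ us.length * B) := by
          apply Nat.mul_le_mul_right
          omega
      _ = (C + 1) ^ (us.length + 1) * B := by ring

theorem tableCount_le {C : ℕ} (rows : List ℕ) : ∀ (L : List ℕ), (∀ x ∈ L, x ≤ C) →
    tableCount rows L ≤ (C + 1) ^ (rows.length * L.length) := by
  induction rows with
  | nil =>
    intro L _
    simp only [tableCount, List.length_nil, zero_mul, pow_zero]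
    split_ifs <;> omega
  | cons a rest ih =>
    intro L hL
    simp only [tableCount, List.length_cons]
    have := sweep_le (next := tableCount rest) (C := C) (ℓ := L.length)
      (B := (C + 1) ^ (rest.length * L.length))
      (fun L' h1 h2 => by
        have := ih L' h1
        rwa [h2] at this) L a [] hL (by simp) (by simp)
    calc rowSweep (tableCount rest) a L [] ≤ _ := this
      _ = (C + 1) ^ ((rest.length + 1) * L.length) := by
          rw [← pow_add]
          congr 1
          ring

/-! ### The reachable subproblems -/

/-- Invariant of the reachable subproblems. -/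
structure Inv (R : List ℕ) (C n : ℕ) (s : Sub) : Prop where
  suffix : s.rows <:+ R
  need_le : s.need ≤ R.sum
  todo_le : ∀ x ∈ s.todo, x ≤ C
  seen_le : ∀ x ∈ s.seen, x ≤ C
  len : s.todo.length + s.seen.length = n

theorem Inv.step {R : List ℕ} {C n : ℕ} {s t : Sub} (h : Inv R C n s) (ht : t ∈ s.calls) :
    Inv R C n t := by
  rcases s with ⟨rows, need, todo, seen⟩
  cases todo with
  | cons u us =>
    simp only [Sub.calls, List.mem_map, List.mem_range] at ht
    obtain ⟨k, _, rfl⟩ := ht
    refine ⟨h.suffix, ?_, ?_, ?_, ?_⟩
    · exact le_trans (Nat.sub_le _ _) h.need_le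
    · intro x hx; exact h.todo_le x (by simp [hx])
    · intro x hx
      rcases List.mem_cons.mp hx with rfl | hx'
      · have : u ≤ C := h.todo_le u (by simp)
        omega
      · exact h.seen_le x hx'
    · have := h.len
      simp only [List.length_cons] at this ⊢
      omega
  | nil =>
    cases need with
    | succ a => simp [Sub.calls] at ht
    | zero =>
      cases rows with
      | nil => simp [Sub.calls] at ht
      | cons a rest =>
        simp only [Sub.calls, List.mem_singleton] at ht
        subst ht
        refine ⟨(List.suffix_cons a rest).trans h.suffix, ?_, h.seen_le, by simp, ?_⟩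
        · have h1 := h.suffix.sublist.sum_le_sum (by simp)
          simp only [List.sum_cons] at h1
          simp only
          omega
        · have := h.len
          simpa using this

theorem inv_reach {R : List ℕ} {C n : ℕ} {start s : Sub} (h0 : Inv R C n start)
    (h : Reach start s) : Inv R C n s := by
  induction h with
  | refl => exact h0
  | tail _ ht ih => exact ih.step ht

/-- Multisets of residual sums: those with at most `n` elements, all at most `C`. -/
def resid (C n : ℕ) : Finset (Multiset ℕ) :=
  (Finset.univ : Finset (Fin (C + 1) → Fin (n + 1))).image fun h =>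
    ∑ i : Fin (C + 1), Multiset.replicate (h i : ℕ) (i : ℕ)

theorem card_resid (C n : ℕ) : (resid C n).card ≤ (n + 1) ^ (C + 1) := by
  calc (resid C n).card ≤ (Finset.univ : Finset (Fin (C + 1) → Fin (n + 1))).card :=
        Finset.card_image_le
    _ = (n + 1) ^ (C + 1) := by simp

theorem mem_resid {C n : ℕ} {W : Multiset ℕ} (h1 : ∀ x ∈ W, x ≤ C)
    (h2 : Multiset.card W ≤ n) : W ∈ resid C n := by
  unfold resid
  rw [Finset.mem_image]
  refine ⟨fun i => ⟨Multiset.count (i : ℕ) W, Nat.lt_succ_of_le
    ((Multiset.count_le_card _ _).trans h2)⟩, Finset.mem_univ _, ?_⟩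
  ext x
  simp only [Multiset.count_sum']
  simp only [Multiset.count_replicate]
  by_cases hx : x ≤ C
  · rw [Finset.sum_eq_single (⟨x, Nat.lt_succ_of_le hx⟩ : Fin (C + 1))]
    · simp
    · intro b _ hb
      have : (b : ℕ) ≠ x := fun h => hb (Fin.ext h)
      simp [this]
    · simp
  · have h3 : x ∉ W := fun hm => hx (h1 x hm)
    rw [Multiset.count_eq_zero_of_notMem h3]
    apply Finset.sum_eq_zero
    intro b _
    have : (b : ℕ) ≠ x := by
      have := b.2
      omega
    simp [this]

/-- The subproblem from which the evaluation starts. -/
def startSub {m n : ℕ} (r : Fin m → ℕ) (c : Fin n → ℕ) : Sub :=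
  ⟨List.ofFn r, 0, [], List.ofFn c⟩

theorem start_value {m n : ℕ} (r : Fin m → ℕ) (c : Fin n → ℕ) :
    (startSub r c).value = Nat.card (TabSet r c) := by
  simp only [Sub.value, startSub, rowSweep, if_true]
  exact tableCount_eq r c

theorem start_inv {m n C : ℕ} (r : Fin m → ℕ) (c : Fin n → ℕ) (hc : ∀ j, c j ≤ C) :
    Inv (List.ofFn r) C n (startSub r c) := by
  refine ⟨List.suffix_refl _, by simp [startSub], by simp [startSub], ?_, by simp [startSub]⟩
  intro x hx
  simp only [startSub, List.mem_ofFn] at hx
  obtain ⟨j, rfl⟩ := hx
  exact hc j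

/-- **Exact counting with bounded column sums.** -/
theorem result (C : ℕ) {m n : ℕ} (r : Fin m → ℕ) (c : Fin n → ℕ) (hc : ∀ j, c j ≤ C) :
    Nat.card {x : Fin m → Fin n → ℕ // (∀ i, ∑ j, x i j = r i) ∧ ∀ j, ∑ i, x i j = c j} =
        (startSub r c).value ∧
      (∀ s : Sub, s.value = s.leaf + (s.calls.map Sub.value).sum) ∧
      (∀ s t : Sub, s.key = t.key → s.value = t.value) ∧
      (∀ s, Reach (startSub r c) s → s.calls.length ≤ C + 1) ∧
      (∀ s, Reach (startSub r c) s → s.value ≤ (C + 1) ^ ((m + 1) * n)) ∧
      (Sub.key '' {s | Reach (startSub r c) s}).ncard ≤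
        (m + 1) * (∑ i, r i + 1) * (n + 1) ^ (2 * (C + 1)) := by
  refine ⟨(start_value r c).symm, value_eq, fun _ _ h => value_key h, ?_, ?_, ?_⟩
  · intro s hs
    have h := inv_reach (start_inv r c hc) hs
    rcases s with ⟨rows, need, todo, seen⟩
    cases todo with
    | cons u us =>
      have hu : u ≤ C := h.todo_le u (by simp)
      simp only [Sub.calls, List.length_map, List.length_range]
      omega
    | nil =>
      cases need with
      | succ a => simp [Sub.calls]
      | zero =>
        cases rows with
        | nil => simp [Sub.calls]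
        | cons a rest => simp [Sub.calls]
  · intro s hs
    have h := inv_reach (start_inv r c hc) hs
    rcases s with ⟨rows, need, todo, seen⟩
    simp only [Sub.value]
    have h1 := sweep_le (next := tableCount rows) (C := C) (ℓ := n)
      (B := (C + 1) ^ (rows.length * n))
      (fun L h2 h3 => by
        have := tableCount_le (C := C) rows L h2
        rwa [h3] at this) todo need seen h.todo_le h.seen_le h.len
    refine h1.trans ?_
    rw [← pow_add]
    apply Nat.pow_le_pow_right (by omega)
    have h2 : rows.length ≤ m := by
      have := h.suffix.length_le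
      simpa using this
    have h3 : todo.length ≤ n := by
      have := h.len
      simp only at this
      omega
    calc todo.length + rows.length * n ≤ n + m * n :=
          Nat.add_le_add h3 (Nat.mul_le_mul_right _ h2)
      _ = (m + 1) * n := by ring
  · classical
    set R := List.ofFn r with hR
    let P : Finset (List ℕ × ℕ × Multiset ℕ × Multiset ℕ) :=
      R.tails.toFinset ×ˢ (range (R.sum + 1) ×ˢ (resid C n ×ˢ resid C n))
    have hsub : Sub.key '' {s | Reach (startSub r c) s} ⊆ (P : Set _) := by
      rintro _ ⟨s, hs, rfl⟩
      have h := inv_reach (start_inv r c hc) hs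
      simp only [Sub.key, P, Finset.coe_product, Set.mem_prod, Finset.mem_coe, List.mem_toFinset,
        List.mem_tails, mem_range]
      refine ⟨h.suffix, Nat.lt_succ_of_le h.need_le, ?_, ?_⟩
      · apply mem_resid
        · intro x hx; exact h.todo_le x (by simpa using hx)
        · have := h.len
          simp only [Multiset.coe_card]
          omega
      · apply mem_resid
        · intro x hx; exact h.seen_le x (by simpa using hx)
        · have := h.len
          simp only [Multiset.coe_card]
          omega
    have hc1 := Set.ncard_le_ncard hsub (Finset.finite_toSet P)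
    rw [Set.ncard_coe_finset] at hc1
    refine hc1.trans ?_
    have hcard : P.card = R.tails.toFinset.card * ((R.sum + 1) * ((resid C n).card * (resid C n).card)) := by
      simp [P, Finset.card_product]
    rw [hcard]
    have h1 : R.tails.toFinset.card ≤ m + 1 := by
      refine (List.toFinset_card_le _).trans ?_
      simp [hR]
    have h2 : R.sum = ∑ i, r i := by
      simp [hR, List.sum_ofFn]
    have h3 := card_resid C n
    calc R.tails.toFinset.card * ((R.sum + 1) * ((resid C n).card * (resid C n).card))
        ≤ (m + 1) * ((R.sum + 1) * ((n + 1) ^ (C + 1) * (n + 1) ^ (C + 1))) := by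
          apply Nat.mul_le_mul h1
          apply Nat.mul_le_mul_left
          exact Nat.mul_le_mul h3 h3
      _ = (m + 1) * (∑ i, r i + 1) * (n + 1) ^ (2 * (C + 1)) := by
          rw [h2, two_mul, pow_add]
          ring

end Vale.Agent.Results.P328.ExactBoundedColumns
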