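import Vale.Agent.Lib.P328Flow.Tables

/-- Comparison of products of counts of contingency tables with cell capacities `U`: if
`r₁ + r₂ = r₁' + r₂'`, `c₁ + c₂ = c₁' + c₂'` and on every set of rows `I` and columns `J` the
difference of the primed margins is dominated by the difference of the others, then
`N(r₁,c₁) N(r₂,c₂) ≤ N(r₁',c₁') N(r₂',c₂')`. This contains `N(k+d) N(k-d) ≤ N(k)²` for every `d`. -/
theorem Vale.Agent.Results.P328.MarginLogConcavity.result {m n : ℕ} (U : Fin m → Fin n → ℕ)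
    (r₁ r₂ r₁' r₂' : Fin m → ℕ) (c₁ c₂ c₁' c₂' : Fin n → ℕ)
    (hr : ∀ i, r₁ i + r₂ i = r₁' i + r₂' i) (hc : ∀ j, c₁ j + c₂ j = c₁' j + c₂' j)
    (hcut : ∀ (I : Finset (Fin m)) (J : Finset (Fin n)),
      |∑ i ∈ I, ((r₁' i : ℤ) - r₂' i) - ∑ j ∈ J, ((c₁' j : ℤ) - c₂' j)|
        ≤ |∑ i ∈ I, ((r₁ i : ℤ) - r₂ i) - ∑ j ∈ J, ((c₁ j : ℤ) - c₂ j)|) :
    Set.ncard {x : Fin m → Fin n → ℕ |
        (∀ i j, x i j ≤ U i j) ∧ (∀ i, ∑ j, x i j = r₁ i) ∧ ∀ j, ∑ i, x i j = c₁ j}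
      * Set.ncard {x : Fin m → Fin n → ℕ |
        (∀ i j, x i j ≤ U i j) ∧ (∀ i, ∑ j, x i j = r₂ i) ∧ ∀ j, ∑ i, x i j = c₂ j}
    ≤ Set.ncard {x : Fin m → Fin n → ℕ |
        (∀ i j, x i j ≤ U i j) ∧ (∀ i, ∑ j, x i j = r₁' i) ∧ ∀ j, ∑ i, x i j = c₁' j}
      * Set.ncard {x : Fin m → Fin n → ℕ |
        (∀ i j, x i j ≤ U i j) ∧ (∀ i, ∑ j, x i j = r₂' i) ∧ ∀ j, ∑ i, x i j = c₂' j} :=
  Vale.Agent.Lib.P328Flow.capTables_mul_le U r₁ r₂ r₁' r₂' c₁ c₂ c₁' c₂' hr hc hcut
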