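import Vale.Agent.Lib.P328.Chain

/-- Reduction of polynomial mixing for all contingency tables to an inequality on three rows: if
`Var(g₀(R₀) + g₁(R₁) + g₂(R₂)) ≤ 2 ∑ₛ Var(gₛ(Rₛ))` holds for uniform tables with three rows and
any margins, then for all `m`, `n` and all margins the lazy heat bath chain on minors with two rows
and two columns is within total variation `1/4` of uniform after
`m² n² (m n ⌈log₂ (N + 1)⌉ + 2)` steps, from every start. -/
theorem Vale.Agent.Results.P328.ThreeRowReduction.result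
    (hT3 : ∀ (k : ℕ) (r₃ : Fin 3 → ℕ) (c₃ : Fin k → ℕ), Vale.Agent.Lib.P328.T3 r₃ c₃)
    {m n : ℕ} (hm : 0 < m) (hn : 0 < n)
    (r : Fin m → ℕ) (c : Fin n → ℕ) (x₀ : Vale.Agent.Lib.P328.Tab r c) (t : ℕ)
    (ht : m ^ 2 * n ^ 2 * (Nat.clog 2 (∑ i, r i + 1) * (m * n) + 2) ≤ t) :
    (1 / 2) * ∑ y, |(Vale.Agent.Lib.P328.chain r c ^ t) x₀ y
        - 1 / (Fintype.card (Vale.Agent.Lib.P328.Tab r c) : ℝ)| ≤ 1 / 4 := by
  haveI : Nonempty (Fin m) := ⟨⟨0, hm⟩⟩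
  haveI : Nonempty (Fin n) := ⟨⟨0, hn⟩⟩
  apply Vale.Agent.Lib.P328.chain_mixing (fun _ _ _ => hT3 _ _ _) x₀ t
  simpa [Vale.Agent.Lib.P328.mixT] using ht
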