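import Vale.Agent.Results.P328.RowSumsTwo
import Vale.Agent.Results.P328.ExactBoundedColumns
import Vale.Agent.Results.P328.MarginLogConcavity
import Vale.Agent.Results.P328.ThreeRowReduction

/-- Conjunction of the complementary results on contingency tables: (1) rapid mixing of the lazy
heat bath chain on minors with two rows and two columns for all row sums at most two; (2) exact
polynomial size recursion for bounded column sums; (3) the margin comparison inequality for the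
counts with cell capacities; (4) reduction of mixing for all margins to the three row inequality. -/
theorem Vale.Agent.Results.P328.A0Conj.result :
    (∀ {m n : ℕ} (_ : 0 < m) (_ : 0 < n)
      (r : Fin m → ℕ) (c : Fin n → ℕ) (_ : ∀ i, r i ≤ 2) (x₀ : Vale.Agent.Lib.P328.Tab r c) (t : ℕ)
      (_ : m ^ 2 * n ^ 2 * (Nat.clog 2 (∑ i, r i + 1) * (m * n) + 2) ≤ t),
      (1 / 2) * ∑ y, |(Vale.Agent.Lib.P328.chain r c ^ t) x₀ y
          - 1 / (Fintype.card (Vale.Agent.Lib.P328.Tab r c) : ℝ)| ≤ 1 / 4) ∧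
    (∀ (C : ℕ) {m n : ℕ} (r : Fin m → ℕ) (c : Fin n → ℕ) (_ : ∀ j, c j ≤ C),
      Nat.card {x : Fin m → Fin n → ℕ // (∀ i, ∑ j, x i j = r i) ∧ ∀ j, ∑ i, x i j = c j} =
          (Vale.Agent.Results.P328.ExactBoundedColumns.startSub r c).value ∧
        (∀ s : Vale.Agent.Results.P328.ExactBoundedColumns.Sub,
          s.value = s.leaf + (s.calls.map Vale.Agent.Results.P328.ExactBoundedColumns.Sub.value).sum) ∧
        (∀ s t : Vale.Agent.Results.P328.ExactBoundedColumns.Sub, s.key = t.key → s.value = t.value) ∧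
        (∀ s, Vale.Agent.Results.P328.ExactBoundedColumns.Reach
          (Vale.Agent.Results.P328.ExactBoundedColumns.startSub r c) s → s.calls.length ≤ C + 1) ∧
        (∀ s, Vale.Agent.Results.P328.ExactBoundedColumns.Reach
          (Vale.Agent.Results.P328.ExactBoundedColumns.startSub r c) s →
            s.value ≤ (C + 1) ^ ((m + 1) * n)) ∧
        (Vale.Agent.Results.P328.ExactBoundedColumns.Sub.key ''
            {s | Vale.Agent.Results.P328.ExactBoundedColumns.Reach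
              (Vale.Agent.Results.P328.ExactBoundedColumns.startSub r c) s}).ncard ≤
          (m + 1) * (∑ i, r i + 1) * (n + 1) ^ (2 * (C + 1))) ∧
    (∀ {m n : ℕ} (U : Fin m → Fin n → ℕ)
      (r₁ r₂ r₁' r₂' : Fin m → ℕ) (c₁ c₂ c₁' c₂' : Fin n → ℕ)
      (_ : ∀ i, r₁ i + r₂ i = r₁' i + r₂' i) (_ : ∀ j, c₁ j + c₂ j = c₁' j + c₂' j)
      (_ : ∀ (I : Finset (Fin m)) (J : Finset (Fin n)),
        |∑ i ∈ I, ((r₁' i : ℤ) - r₂' i) - ∑ j ∈ J, ((c₁' j : ℤ) - c₂' j)|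
          ≤ |∑ i ∈ I, ((r₁ i : ℤ) - r₂ i) - ∑ j ∈ J, ((c₁ j : ℤ) - c₂ j)|),
      Set.ncard {x : Fin m → Fin n → ℕ |
          (∀ i j, x i j ≤ U i j) ∧ (∀ i, ∑ j, x i j = r₁ i) ∧ ∀ j, ∑ i, x i j = c₁ j}
        * Set.ncard {x : Fin m → Fin n → ℕ |
          (∀ i j, x i j ≤ U i j) ∧ (∀ i, ∑ j, x i j = r₂ i) ∧ ∀ j, ∑ i, x i j = c₂ j}
      ≤ Set.ncard {x : Fin m → Fin n → ℕ |
          (∀ i j, x i j ≤ U i j) ∧ (∀ i, ∑ j, x i j = r₁' i) ∧ ∀ j, ∑ i, x i j = c₁' j}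
        * Set.ncard {x : Fin m → Fin n → ℕ |
          (∀ i j, x i j ≤ U i j) ∧ (∀ i, ∑ j, x i j = r₂' i) ∧ ∀ j, ∑ i, x i j = c₂' j}) ∧
    ((∀ (k : ℕ) (r₃ : Fin 3 → ℕ) (c₃ : Fin k → ℕ), Vale.Agent.Lib.P328.T3 r₃ c₃) →
      ∀ {m n : ℕ} (_ : 0 < m) (_ : 0 < n)
      (r : Fin m → ℕ) (c : Fin n → ℕ) (x₀ : Vale.Agent.Lib.P328.Tab r c) (t : ℕ)
      (_ : m ^ 2 * n ^ 2 * (Nat.clog 2 (∑ i, r i + 1) * (m * n) + 2) ≤ t),
      (1 / 2) * ∑ y, |(Vale.Agent.Lib.P328.chain r c ^ t) x₀ y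
          - 1 / (Fintype.card (Vale.Agent.Lib.P328.Tab r c) : ℝ)| ≤ 1 / 4) :=
  ⟨@Vale.Agent.Results.P328.RowSumsTwo.result,
   @Vale.Agent.Results.P328.ExactBoundedColumns.result,
   @Vale.Agent.Results.P328.MarginLogConcavity.result,
   @Vale.Agent.Results.P328.ThreeRowReduction.result⟩
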