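import Vale.Agent.Lib.P328.Small

/-- Contingency tables with all row sums at most two and arbitrary column sums: the lazy heat bath
chain on minors with two rows and two columns is within total variation `1/4` of uniform after
`m² n² (m n ⌈log₂ (N + 1)⌉ + 2)` steps, from every start. -/
theorem Vale.Agent.Results.P328.RowSumsTwo.result {m n : ℕ} (hm : 0 < m) (hn : 0 < n)
    (r : Fin m → ℕ) (c : Fin n → ℕ) (hr : ∀ i, r i ≤ 2) (x₀ : Vale.Agent.Lib.P328.Tab r c) (t : ℕ)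
    (ht : m ^ 2 * n ^ 2 * (Nat.clog 2 (∑ i, r i + 1) * (m * n) + 2) ≤ t) :
    (1 / 2) * ∑ y, |(Vale.Agent.Lib.P328.chain r c ^ t) x₀ y
        - 1 / (Fintype.card (Vale.Agent.Lib.P328.Tab r c) : ℝ)| ≤ 1 / 4 := by
  haveI : Nonempty (Fin m) := ⟨⟨0, hm⟩⟩
  haveI : Nonempty (Fin n) := ⟨⟨0, hn⟩⟩
  apply Vale.Agent.Lib.P328.chain_mixing_small hr x₀ t
  simpa [Vale.Agent.Lib.P328.mixT] using ht
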